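import Vale.Agent.P233.AB.StmtAB
import Vale.Agent.P242.CDDefs

/-!
P233, stage 3: `RCD(K,N)` as in the problem file. The curvature-dimension condition of Lott, Sturm
and Villani (Sturm, On the geometry of metric measure spaces II, Definition 1.3) is
`Vale.Agent.P242.IsCD`.
-/

open MeasureTheory Set
open scoped ENNReal NNReal

universe u

namespace Vale.Agent.P233.CD

/-- `(M,d,m)` is `RCD(K,N)`: `M` is nonempty, `m` is finite on bounded sets, `CD(K,N)` holds and
the Cheeger energy is a quadratic form. -/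
structure IsRCD {M : Type u} [MetricSpace M] [MeasurableSpace M] (m : Measure M) (K N : ℝ) :
    Prop where
  ne : Nonempty M
  fin : ∀ (x : M) (r : ℝ), m (Metric.ball x r) < ∞
  cd : P242.IsCD K N m
  quadratic : ∀ f g, (T.sob m).W f → (T.sob m).W g →
    ∫ x, T.slope m (fun y => f y + g y) x ^ 2 + T.slope m (fun y => f y - g y) x ^ 2 ∂m
      = ∫ x, 2 * T.slope m f x ^ 2 + 2 * T.slope m g x ^ 2 ∂m

/-- (B): `ℋⁿ` has full support, `(M, d, ℋⁿ)` is `RCD((n - 1) κ, n)` and has distributional
sectional curvature `≥ κ`. -/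
def IsSecN (M : Type u) [MetricSpace M] [MeasurableSpace M] [BorelSpace M] (n : ℕ) (κ : ℝ) :
    Prop :=
  (Measure.hausdorffMeasure (n : ℝ) : Measure M).IsOpenPosMeasure ∧
    IsRCD (Measure.hausdorffMeasure (n : ℝ) : Measure M) ((n - 1) * κ) n ∧
    T.DistSecGE (T.sob (Measure.hausdorffMeasure (n : ℝ) : Measure M)) κ

end Vale.Agent.P233.CD
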