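import Vale.Agent.P233.CD.Defs
import Vale.Agent.P233.H131.Z

/-!
P233, stage 3: Question 1 with `RCD(K,N)` as in the problem file, from the two blocks
(3a) Alexandrov ⇒ `CD((n-1)κ,n)` and (3b) `CD(K,n)`, quadratic Cheeger energy ⇒ the Eulerian form.
-/

open MeasureTheory Set
open scoped ENNReal NNReal MeasureTheory

universe u

namespace Vale.Agent.P233.CD

/-- (3a) -/
def Blk_3a : Prop :=
  ∀ (M : Type u) [MetricSpace M] [CompleteSpace M] [SecondCountableTopology M]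
    [MeasurableSpace M] [BorelSpace M] (n : ℕ) (κ : ℝ), 2 ≤ n → T.IsAlexN M n κ →
    P242.IsCD ((n - 1) * κ) n (μH[n] : Measure M)

/-- (3b) -/
def Blk_3b : Prop :=
  ∀ (M : Type u) [MetricSpace M] [CompleteSpace M] [SecondCountableTopology M]
    [MeasurableSpace M] [BorelSpace M] (n : ℕ) (K : ℝ), 2 ≤ n →
    (μH[n] : Measure M).IsOpenPosMeasure → IsRCD (μH[n] : Measure M) K n →
    T.IsRCD (μH[n] : Measure M) K n

/-- Question 1 of the problem file. -/
def FinalCD : Prop :=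
  ∀ (M : Type u) [MetricSpace M] [CompleteSpace M] [SecondCountableTopology M]
    [MeasurableSpace M] [BorelSpace M] (n : ℕ), 2 ≤ n → ∀ κ : ℝ,
    (T.IsAlexN M n κ ↔ IsSecN M n κ)

theorem final_of (h : H131.Z.FinalThm.{u}) (ha : Blk_3a.{u}) (hb : Blk_3b.{u}) : FinalCD.{u} := by
  intro M _ _ _ _ _ n hn κ
  constructor
  · intro hA
    obtain ⟨h1, h2, h3⟩ := (h M n hn κ).1 hA
    exact ⟨h1, ⟨H636.nonempty_of_isRCD h2, fun x r => H636.ball_finite_of_isRCD h2 x r, ha M n κ hn hA, h2.quadratic⟩, h3⟩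
  · rintro ⟨h1, h2, h3⟩
    exact (h M n hn κ).2 ⟨h1, hb M n _ hn h1 h2, h3⟩

end Vale.Agent.P233.CD
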