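import Vale.Agent.P233.CD.Final
import Vale.Agent.P233.RA.IfG
import Vale.Agent.P233.H227.ChDef

/-!
P233, stage 3, block (3b): frozen interface (helper671). `CD(K,n)`, `m = ℋⁿ`, quadratic Cheeger
energy ⇒ Eulerian `RCD(K,n)`. Metric half: helper227's plan (notes 11418, 11612); analytic half:
Theorem N with a density function (helper994).
-/

set_option linter.all false

open MeasureTheory Filter Topology Set Metric
open scoped ENNReal NNReal MeasureTheory

universe u

namespace Vale.Agent.P233.CD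

open Vale.Agent.P233.RA Vale.Agent.P233.H227.Ch

section

variable {M : Type u} [MetricSpace M] [MeasurableSpace M]

/-- the hypotheses of (3b) -/
structure Hyp [BorelSpace M] (m : Measure M) (n : ℕ) (K : ℝ) : Prop where
  two_le : 2 ≤ n
  haus : m = μH[(n : ℝ)]
  full : m.IsOpenPosMeasure
  rcd : IsRCD m K n

/-- density function (fields of `NSp2`) -/
structure Th (m : Measure M) (n : ℕ) (θ : M → ℝ) : Prop where
  meas : Measurable θ
  bd : ∀ (x₀ : M) (R : ℝ), ∃ c : ℝ, 0 < c ∧ ∀ x ∈ ball x₀ R, c ≤ θ x ∧ θ x ≤ c⁻¹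
  dens : ∀ᵐ x ∂m, Tendsto (fun r : ℝ => (m (ball x r)).toReal / r ^ n) (𝓝[>] 0) (𝓝 (θ x))

/-- `|∇d_p| = 1` (field `ww_grad` of `NSp2`) -/
def WGrad (m : Measure M) : Prop :=
  ∀ (p : M) (δ : ℝ), 0 < δ → ∀ᵐ x ∂m, gg p x < δ → 2 * gg p x ≤ slope (cl m (ww δ p)) x ^ 2

/-- Brunn-Minkowski with a point target, exact form -/
def BMp (m : Measure M) (n : ℕ) (K : ℝ) : Prop :=
  ∀ (p : M) (t : ℝ), 0 < t → t < 1 → ∀ A : Set M, IsCompact A → ∀ c : ℝ≥0∞,
    (∀ x ∈ A, c ≤ P242.tauCoeff K n (1 - t) (dist x p) ^ n) →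
    c * m A ≤ m {z | ∃ x ∈ A, dist x z = t * dist x p ∧ dist z p = (1 - t) * dist x p}

end

/-! ### Blocks -/

/-- helper866 (seconds: helper675): proper, geodesic, Bishop-Gromov, doubling, growth, density -/
def Blk_Vol : Prop :=
  ∀ (M : Type u) [MetricSpace M] [CompleteSpace M] [SecondCountableTopology M]
    [MeasurableSpace M] [BorelSpace M] (m : Measure M) (n : ℕ) (K : ℝ), Hyp m n K →
    RG.GeoN m n ∧ ∃ θ : M → ℝ, Th m n θ

/-- helper939 -/
def Blk_BMp : Prop :=
  ∀ (M : Type u) [MetricSpace M] [CompleteSpace M] [SecondCountableTopology M]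
    [MeasurableSpace M] [BorelSpace M] (m : Measure M) (n : ℕ) (K : ℝ), Hyp m n K →
    RG.GeoN m n → BMp m n K

/-- helper825: thin annuli, Strassen -/
def Blk_OS : Prop :=
  ∀ (M : Type u) [MetricSpace M] [CompleteSpace M] [SecondCountableTopology M]
    [MeasurableSpace M] [BorelSpace M] (m : Measure M) (n : ℕ) (K : ℝ), 2 ≤ n →
    RG.GeoN m n → BMp m n K → OS m n K

/-- helper227 -/
def Blk_Lc : Prop :=
  ∀ (M : Type u) [MetricSpace M] [CompleteSpace M] [SecondCountableTopology M]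
    [MeasurableSpace M] [BorelSpace M] (m : Measure M) (n : ℕ) (K : ℝ), 2 ≤ n →
    RG.GeoN m n → RG.Quadr m → OS m n K → RG.LC m n K ∧ WGrad m

/-- helper790 -/
def Blk_S2l : Prop :=
  ∀ (M : Type u) [MetricSpace M] [CompleteSpace M] [SecondCountableTopology M]
    [MeasurableSpace M] [BorelSpace M] (m : Measure M) (n : ℕ) (K : ℝ), 2 ≤ n →
    RG.GeoN m n → OS m n K → RG.S2L m

/-- Theorem N with a density function (helper994) -/
def Blk_N2 : Prop :=
  ∀ (M : Type u) [MetricSpace M] [CompleteSpace M] [SecondCountableTopology M]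
    [MeasurableSpace M] [BorelSpace M] (m : Measure M) (n : ℕ) (K : ℝ) (θ : M → ℝ), 2 ≤ n →
    RG.GeoN m n → Th m n θ → RG.Quadr m → RG.S2L m → RG.LC m n K → WGrad m → (sob m).BE K n

/-! ### Assembly -/

theorem quadr_of {M : Type u} [MetricSpace M] [MeasurableSpace M] [BorelSpace M]
    [SecondCountableTopology M] {m : Measure M} {K N : ℝ} (h : IsRCD m K N) : RG.Quadr m := by
  intro F hF G hG
  have rF := R.coe F
  have rG := R.coe G
  have h1 := h.quadratic F G (rF.W_iff.2 hF) (rG.W_iff.2 hG)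
  have hs := sob_add_mem hF hG
  have hd := sob_sub_mem hF hG
  have a1 := ((rF.add rG).slope hs).sq
  have a2 := ((rF.sub rG).slope hd).sq
  have a3 := (rF.slope hF).sq
  have a4 := (rG.slope hG).sq
  have key : ∀ E : M →ₘ[m] ℝ, E ∈ (sob m).W → Integrable (slope E ^ 2 : M →ₘ[m] ℝ) m := by
    intro E hE
    exact int_of_mem (mem_sq (exists_minSlope' hE).1.2.1)
  have e1 : ∫ x, S.slope m (fun y => F y + G y) x ^ 2 + S.slope m (fun y => F y - G y) x ^ 2 ∂m
      = ∫ x, (slope (F + G) ^ 2) x ∂m + ∫ x, (slope (F - G) ^ 2) x ∂m := by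
    rw [← integral_add (key _ hs) (key _ hd)]
    refine integral_congr_ae ?_
    filter_upwards [a1, a2] with x b1 b2
    rw [b1, b2]
  have e2 : ∫ x, 2 * S.slope m F x ^ 2 + 2 * S.slope m G x ^ 2 ∂m
      = 2 * ∫ x, (slope F ^ 2) x ∂m + 2 * ∫ x, (slope G ^ 2) x ∂m := by
    rw [← integral_const_mul, ← integral_const_mul,
      ← integral_add ((key _ hF).const_mul 2) ((key _ hG).const_mul 2)]
    refine integral_congr_ae ?_
    filter_upwards [a3, a4] with x b3 b4
    rw [b3, b4]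
  exact (e1.symm.trans h1).trans e2

theorem blk_3b_of (hV : Blk_Vol.{u}) (hB : Blk_BMp.{u}) (hO : Blk_OS.{u}) (hL : Blk_Lc.{u})
    (hS : Blk_S2l.{u}) (hN : Blk_N2.{u}) : Blk_3b.{u} := by
  intro M _ _ _ _ _ n K hn hfull hR
  have h : Hyp (μH[(n : ℝ)] : Measure M) n K := ⟨hn, rfl, hfull, hR⟩
  obtain ⟨g, θ, t⟩ := hV M _ n K h
  have q := quadr_of hR
  have o := hO M _ n K hn g (hB M _ n K h g)
  obtain ⟨l1, l2⟩ := hL M _ n K hn g q o
  have s := hS M _ n K hn g o
  exact H131.Z.T_of_S (H131.Z.S_isRCD_of q (H131.Z.growth_sq g.growth) s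
    (hN M _ n K θ hn g t q s l1 l2))

end Vale.Agent.P233.CD
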